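/-
Tingley's problem for spaces linearly isometric to `C₀(K, E)`, on either side.
-/
import Vale.Agent.Lib.P084.Defs
import Vale.Agent.Lib.P084.C0.Final
import Vale.Agent.Lib.P084.LSum.Top

namespace Vale.Agent.Lib.P084.C0

open Vale.Agent.Lib.P084.UC
open Metric
open scoped ZeroAtInfty

universe u v

variable {X : Type u} {Y : Type v} [NormedAddCommGroup X] [NormedSpace ℝ X] [NormedAddCommGroup Y]
  [NormedSpace ℝ Y]

/-- Extension if the source is a `C₀(K, E)`. -/
theorem extends_of_isVectorC0 (hX : IsVectorC0 X) {f : X → Y} (hf : IsSphereIso f) :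
    ∃ T : X ≃ₗᵢ[ℝ] Y, ∀ x, ‖x‖ = 1 → T x = f x := by
  obtain ⟨K, E, _, _, _, _, _, _, ⟨e⟩⟩ := hX
  have hF : IsSphereIso (fun p : C₀(K, E) => f (e.symm p)) := by
    refine ⟨fun p hp => hf.norm_eq _ (by rw [e.symm.norm_map]; exact hp), fun p q hp hq => ?_,
      fun z hz => ?_⟩
    · rw [hf.iso _ _ (by rw [e.symm.norm_map]; exact hp) (by rw [e.symm.norm_map]; exact hq),
        ← map_sub, e.symm.norm_map]
    · obtain ⟨x, hx, hfx⟩ := hf.surj z hz
      refine ⟨e x, by rw [e.norm_map]; exact hx, ?_⟩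
      simp [hfx]
  obtain ⟨T, hT⟩ := exists_linear hF
  refine ⟨e.trans T, fun x hx => ?_⟩
  have h1 := hT (e x) (by rw [e.norm_map]; exact hx)
  simpa using h1

/-- Map of the unit spheres, source version. -/
theorem extends_sphere_source (f : sphere (0 : X) 1 → sphere (0 : Y) 1) (hf : Isometry f)
    (hs : Function.Surjective f) (hX : IsVectorC0 X) :
    ∃ T : X ≃ₗᵢ[ℝ] Y, ∀ x : sphere (0 : X) 1, T x = f x := by
  obtain ⟨g, hg, hgf⟩ := LSum.exists_ambient f hf hs
  obtain ⟨T, hT⟩ := extends_of_isVectorC0 hX hg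
  exact ⟨T, fun x => by rw [hT x (by simp), hgf]⟩

/-- Map of the unit spheres, target version. -/
theorem extends_sphere_target (f : sphere (0 : X) 1 → sphere (0 : Y) 1) (hf : Isometry f)
    (hs : Function.Surjective f) (hY : IsVectorC0 Y) :
    ∃ T : X ≃ₗᵢ[ℝ] Y, ∀ x : sphere (0 : X) 1, T x = f x := by
  obtain ⟨h, hh, hhs, htr⟩ := LSum.exists_inverse f hf hs
  exact htr (extends_sphere_source h hh hhs hY)

end Vale.Agent.Lib.P084.C0
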